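import Mathlib
import Crest.Prelude.Def_ModularData

/-!
# S0112 (row 84): assembly frame

Shape-independent pieces of the assembly of `notes/s0112/PROOF.md`:

* `Key` / `result_of_key` (step I.7): the frozen statement follows from one `n`-free statement.
* `exists_window` (step I.1): a lower bound on the ultrafilter mean gives arbitrarily large
  windows whose average is almost as large.
-/

set_option autoImplicit false

namespace Crest.Agent.Helper98.S0112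

open Filter Topology MeasureTheory
open Crest.OpAlg

variable {H : Type*} [NormedAddCommGroup H] [InnerProductSpace ℂ H] [CompleteSpace H]

/-- The `n`-free key statement: for every `c > 0` there are `C` and `η > 0` such that every unit
vector `h` with spectral support in `[s - d, s + d]`, `0 < d ≤ 1`, whose `ω`-mean of
`‖T exp(itD) h‖²` is at least `c`, can be recovered by some `v ∈ M` of norm at most `C`. -/
def Key (S : ModularDatum H) (ω : Ultrafilter ℕ) (T : H →L[ℂ] H) (s : ℝ) : Prop :=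
  ∀ c : ℝ, 0 < c → ∃ C η : ℝ, 0 < η ∧ ∀ (d : ℝ) (h : H), 0 < d → d ≤ 1 → ‖h‖ = 1 →
    S.D.SupportedIn (Set.Icc (s - d) (s + d)) h →
    c ≤ ultraMean ω (fun t : ℝ => ‖T (S.D.wave t h)‖ ^ 2) →
    ∃ v : H →L[ℂ] H, v ∈ S.M ∧ ‖v‖ ≤ C ∧ η ≤ ‖T (v S.vac)‖ ∧
      S.D.SupportedIn (Set.Icc (s - 4 * d) (s + 4 * d)) (v S.vac)

/-- Step I.7: the frozen statement of S0112 follows from `Key`. -/
theorem result_of_key (S : ModularDatum H) (ω : Ultrafilter ℕ) (T : H →L[ℂ] H) (s : ℝ)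
    (key : Key S ω T s)
    (δ : ℕ → ℝ) (hδ : ∀ n, 0 < δ n)
    (hδ0 : Filter.Tendsto δ Filter.atTop (nhds 0))
    (h : ℕ → H) (hh : ∀ n, ‖h n‖ = 1)
    (hband : ∀ n, S.D.SupportedIn (Set.Icc (s - δ n) (s + δ n)) (h n))
    (hpos : ∃ c : ℝ, 0 < c ∧ ∃ᶠ n in Filter.atTop,
      c ≤ Crest.OpAlg.ultraMean ω (fun t : ℝ => ‖T (S.D.wave t (h n))‖ ^ 2)) :
    ∃ (n' : ℕ → ℕ) (v : ℕ → (H →L[ℂ] H)) (C η : ℝ), StrictMono n' ∧ 0 < η ∧
      ∀ j : ℕ, v j ∈ S.M ∧ ‖v j‖ ≤ C ∧ η ≤ ‖T (v j S.vac)‖ ∧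
        S.D.SupportedIn (Set.Icc (s - 4 * δ (n' j)) (s + 4 * δ (n' j))) (v j S.vac) := by
  obtain ⟨c, hc, hfreq⟩ := hpos
  obtain ⟨C, η, hη, hkey⟩ := key c hc
  have hev : ∀ᶠ n in atTop, δ n ≤ 1 :=
    hδ0.eventually (eventually_le_nhds (show (0 : ℝ) < 1 by norm_num))
  have hfreq2 : ∃ᶠ n in atTop,
      c ≤ ultraMean ω (fun t : ℝ => ‖T (S.D.wave t (h n))‖ ^ 2) ∧ δ n ≤ 1 :=
    hfreq.and_eventually hev
  obtain ⟨n', hmono, hn'⟩ := extraction_of_frequently_atTop hfreq2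
  choose v hv using fun j =>
    hkey (δ (n' j)) (h (n' j)) (hδ _) (hn' j).2 (hh _) (hband _) (hn' j).1
  exact ⟨n', v, C, η, hmono, hη, hv⟩

/-- The window averages of a bounded function are bounded by the same constant. -/
theorem abs_windowMean_le (φ : ℝ → ℝ) (B : ℝ) (hB : ∀ t, |φ t| ≤ B) (k : ℕ) :
    |windowMean φ k| ≤ B := by
  have hB0 : 0 ≤ B := le_trans (abs_nonneg _) (hB 0)
  unfold windowMean
  rw [setAverage_eq, smul_eq_mul, abs_mul]
  have hfin : volume (Set.Icc (-(k : ℝ)) (k : ℝ)) < ⊤ := by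
    rw [Real.volume_Icc]; exact ENNReal.ofReal_lt_top
  have h1 : |∫ t in Set.Icc (-(k : ℝ)) (k : ℝ), φ t| ≤
      B * (volume.real (Set.Icc (-(k : ℝ)) (k : ℝ))) := by
    have := norm_setIntegral_le_of_norm_le_const (μ := volume) (s := Set.Icc (-(k : ℝ)) (k : ℝ))
      (f := φ) (C := B) hfin (fun t _ => by simpa using hB t)
    simpa using this
  have hnn : 0 ≤ volume.real (Set.Icc (-(k : ℝ)) (k : ℝ)) := measureReal_nonneg
  rw [abs_of_nonneg (inv_nonneg.mpr hnn)]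
  rcases eq_or_lt_of_le hnn with h0 | hpos
  · rw [← h0]; simpa using hB0
  · calc (volume.real (Set.Icc (-(k : ℝ)) (k : ℝ)))⁻¹ * |∫ t in Set.Icc (-(k : ℝ)) (k : ℝ), φ t|
        ≤ (volume.real (Set.Icc (-(k : ℝ)) (k : ℝ)))⁻¹ *
            (B * volume.real (Set.Icc (-(k : ℝ)) (k : ℝ))) :=
          mul_le_mul_of_nonneg_left h1 (inv_nonneg.mpr hnn)
      _ = B := by field_simp

/-- Step I.1: if the `ω`-mean of a bounded function is at least `c`, then there are arbitrarily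
large windows whose average exceeds `c - ε`. -/
theorem exists_window (ω : Ultrafilter ℕ) (hω : (ω : Filter ℕ) ≤ Filter.atTop)
    (φ : ℝ → ℝ) (B : ℝ) (hB : ∀ t, |φ t| ≤ B) (c : ℝ) (hc : c ≤ ultraMean ω φ)
    (ε : ℝ) (hε : 0 < ε) (K₀ : ℕ) :
    ∃ k : ℕ, K₀ ≤ k ∧ 1 ≤ k ∧ c - ε < windowMean φ k := by
  -- the bounded sequence of window means converges along `ω`
  have hmem : ∀ k, windowMean φ k ∈ Set.Icc (-B) B := fun k =>
    abs_le.mp (abs_windowMean_le φ B hB k)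
  have hcomp : IsCompact (Set.Icc (-B) B) := isCompact_Icc
  have hmap : Set.Icc (-B) B ∈ (ω.map (windowMean φ) : Filter ℝ) := by
    rw [Ultrafilter.coe_map, Filter.mem_map]
    exact Filter.Eventually.of_forall hmem
  obtain ⟨L, -, hL⟩ := hcomp.ultrafilter_le_nhds (ω.map (windowMean φ)) (by simpa using hmap)
  have hten : Tendsto (windowMean φ) (ω : Filter ℕ) (𝓝 L) := by
    simpa [Tendsto, Ultrafilter.coe_map] using hL
  have hlim : ultraMean ω φ = L := hten.limUnder_eq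
  have hcL : c - ε < L := by rw [← hlim]; linarith
  have h1 : ∀ᶠ k in (ω : Filter ℕ), c - ε < windowMean φ k :=
    hten.eventually (lt_mem_nhds hcL)
  have h2 : ∀ᶠ k in (ω : Filter ℕ), K₀ ≤ k ∧ 1 ≤ k :=
    hω ((eventually_ge_atTop K₀).and (eventually_ge_atTop 1))
  obtain ⟨k, hk1, hk2⟩ := (h1.and h2).exists
  exact ⟨k, hk2.1, hk2.2, hk1⟩

/-- Step I.1 in the coordinator's shape: along `ω`, the window means eventually exceed `3c/4`. -/
theorem eventually_windowMean_gt (ω : Ultrafilter ℕ) (f : ℝ → ℝ) (B : ℝ)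
    (h0 : ∀ t, 0 ≤ f t) (hB : ∀ t, f t ≤ B) (c : ℝ) (hc : 0 < c)
    (h : c ≤ Crest.OpAlg.ultraMean ω f) :
    ∀ᶠ k in (ω : Filter ℕ), 3 * c / 4 < Crest.OpAlg.windowMean f k := by
  have hB' : ∀ t, |f t| ≤ B := fun t => by rw [abs_of_nonneg (h0 t)]; exact hB t
  have hmem : ∀ k, windowMean f k ∈ Set.Icc (-B) B := fun k =>
    abs_le.mp (abs_windowMean_le f B hB' k)
  have hmap : Set.Icc (-B) B ∈ (ω.map (windowMean f) : Filter ℝ) := by
    rw [Ultrafilter.coe_map, Filter.mem_map]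
    exact Filter.Eventually.of_forall hmem
  obtain ⟨L, -, hL⟩ := isCompact_Icc.ultrafilter_le_nhds (ω.map (windowMean f))
    (by simpa using hmap)
  have hten : Tendsto (windowMean f) (ω : Filter ℕ) (𝓝 L) := by
    simpa [Tendsto, Ultrafilter.coe_map] using hL
  have hlim : ultraMean ω f = L := hten.limUnder_eq
  have hcL : 3 * c / 4 < L := by rw [← hlim]; linarith
  exact hten.eventually (lt_mem_nhds hcL)

/-- The window mean over `[-k, k]` (`k ≥ 1`) in interval-integral form. -/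
theorem windowMean_eq_intervalIntegral (f : ℝ → ℝ) (k : ℕ) (hk : 1 ≤ k) :
    Crest.OpAlg.windowMean f k = (2 * (k : ℝ))⁻¹ * ∫ t in (-(k : ℝ))..(k : ℝ), f t := by
  have hk' : (1 : ℝ) ≤ (k : ℝ) := by exact_mod_cast hk
  have hle : -(k : ℝ) ≤ (k : ℝ) := by linarith
  unfold windowMean
  rw [setAverage_eq, smul_eq_mul, Real.volume_real_Icc_of_le hle,
    integral_Icc_eq_integral_Ioc, intervalIntegral.integral_of_le hle]
  congr 2
  ring

/-- Vector-valued version: the set average over `[-k, k]` in interval-integral form. -/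
theorem setAverage_Icc_eq_intervalIntegral {E : Type*} [NormedAddCommGroup E] [NormedSpace ℝ E]
    (Ψ : ℝ → E) (k : ℕ) (hk : 1 ≤ k) :
    ⨍ t in Set.Icc (-(k : ℝ)) (k : ℝ), Ψ t =
      ((2 * (k : ℝ))⁻¹ : ℝ) • ∫ t in (-(k : ℝ))..(k : ℝ), Ψ t := by
  have hk' : (1 : ℝ) ≤ (k : ℝ) := by exact_mod_cast hk
  have hle : -(k : ℝ) ≤ (k : ℝ) := by linarith
  rw [setAverage_eq, Real.volume_real_Icc_of_le hle,
    integral_Icc_eq_integral_Ioc, intervalIntegral.integral_of_le hle]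
  congr 2
  ring

/-- Steps I.1 + freeness: arbitrarily large `k ≥ 1` with window mean above `3c/4`, in the
interval-integral form. -/
theorem exists_window_intervalIntegral (ω : Ultrafilter ℕ) (hω : (ω : Filter ℕ) ≤ Filter.atTop)
    (f : ℝ → ℝ) (B : ℝ) (h0 : ∀ t, 0 ≤ f t) (hB : ∀ t, f t ≤ B) (c : ℝ) (hc : 0 < c)
    (h : c ≤ Crest.OpAlg.ultraMean ω f) (K₀ : ℕ) :
    ∃ k : ℕ, K₀ ≤ k ∧ 1 ≤ k ∧
      3 * c / 4 < (2 * (k : ℝ))⁻¹ * ∫ t in (-(k : ℝ))..(k : ℝ), f t := by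
  have h1 := eventually_windowMean_gt ω f B h0 hB c hc h
  have h2 : ∀ᶠ k in (ω : Filter ℕ), K₀ ≤ k ∧ 1 ≤ k :=
    hω ((eventually_ge_atTop K₀).and (eventually_ge_atTop 1))
  obtain ⟨k, hk1, hk2⟩ := (h1.and h2).exists
  exact ⟨k, hk2.1, hk2.2, by rwa [← windowMean_eq_intervalIntegral f k hk2.2]⟩

end Crest.Agent.Helper98.S0112
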